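import Vale.Agent.P078.Compress
import Vale.Agent.P078.ThinDiffuse

namespace Vale.Agent.Results.P078.A0_Reduction

open Vale.Agent.P078

/-- Every MASA `A` of every von Neumann algebra `M` splits along a projection `z ∈ A` into an
expected corner `A z ⊆ z M z`, on which the normal positive functionals having `A` in their
centralizer separate the projections of `A z` from `0`, and a nowhere expected corner `1 - z`, at
which all these functionals vanish. The paving number of `A ⊆ M` is that of the expected corner up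
to the additive term `⌊1/ε⌋ + 1`; it is at least `⌈1/ε⌉` if `z ≠ 1`, and it is exactly `⌈1/ε⌉` if
`z = 0` (and `1/ε` is not an integer), which happens for the diffuse MASAs of the algebra of all
bounded operators. -/
theorem result {H : Type*} [NormedAddCommGroup H] [InnerProductSpace ℂ H] [CompleteSpace H]
    [Nontrivial H] (A M : VonNeumannAlgebra H) (hA : IsMASA A M) :
    ∃ z ∈ A, IsStarProjection z ∧
      (∀ f ∈ A, IsStarProjection f → z * f = f → f ≠ 0 →
        ∃ ψ : (H →L[ℂ] H) →ₗ[ℂ] ℂ, PositiveOn M ψ ∧ NormalOn M ψ ∧ CentralOn A M ψ ∧ ψ f ≠ 0) ∧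
      NullAt A M (1 - z) ∧
      (∀ ε : ℝ, 0 < ε →
        pavingNumber A M ε ≤ cornerPavingNumber A M z ε + (⌊1 / ε⌋₊ + 1 : ℕ)) ∧
      (∀ ε ε' : ℝ, ε < ε' → cornerPavingNumber A M z ε' ≤ pavingNumber A M ε) ∧
      (z ≠ 1 → ∀ ε : ℝ, 0 < ε → ((⌈1 / ε⌉₊ : ℕ) : ℕ∞) ≤ pavingNumber A M ε) ∧
      (z = 0 → ∀ ε : ℝ, 0 < ε → ε < 1 → (∀ k : ℕ, (k : ℝ) * ε ≠ 1) →
        pavingNumber A M ε = (⌈1 / ε⌉₊ : ℕ)) ∧
      ((∀ y : H →L[ℂ] H, y ∈ M) → IsDiffuse A → z = 0) := by
  obtain ⟨z, hzA, hz, hsep, hnull⟩ := exists_decomp hA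
  refine ⟨z, hzA, hz, hsep, hnull, fun ε hε => reduction_number hA hzA hz hnull hε,
    fun ε ε' hεε => compress_number hA hzA hz hεε, ?_, ?_, ?_⟩
  · intro hz1 ε h0
    unfold pavingNumber
    refine le_sInf ?_
    rintro _ ⟨r, rfl, hr1, hr⟩
    by_contra hlt
    have hlt' : r < ⌈1 / ε⌉₊ := by
      have := not_le.mp hlt
      exact_mod_cast this
    have h1 : (r : ℝ) < 1 / ε := Nat.lt_ceil.mp hlt'
    have hrpos : (0 : ℝ) < r := by exact_mod_cast hr1
    have h2 : ε < 1 / (r : ℝ) := by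
      rw [lt_div_iff₀ hrpos]
      rw [lt_div_iff₀ h0] at h1
      linarith
    obtain ⟨x, hxM, hx, hnot⟩ := reduction_lower hA hzA hz hnull hz1 hr1 h2
    exact hnot (hr x hxM hx)
  · intro hz0 ε h0 _ hk
    rw [hz0, sub_zero] at hnull
    exact paving_formula hA (ne_of_null_one hnull) h0 hk
  · intro hM hd
    by_contra hz0
    obtain ⟨ψ, h1, h2, h3, h4⟩ := hsep z hzA hz hz.isIdempotentElem.eq hz0
    exact h4 (ne_of_diffuse hM hA hd ψ h1 h2 h3 z (hM z))

end Vale.Agent.Results.P078.A0_Reduction
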