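import Vale.Agent.P078.ThinDiffuse
import Vale.Agent.P078.LowerGen

namespace Vale.Agent.Results.P078.A1_NowhereExpected

open Vale.Agent.P078

/-- Sharp so-paving for every nowhere expected MASA `A` of an arbitrary von Neumann algebra `M`
(no normal positive functional on `M` other than `0` has `A` in its centralizer): `r` pieces pave
every self-adjoint element of `M` up to any `ε > 1/r`, they fail for some self-adjoint element if
`ε < 1/r`, and hence `n_{A ⊆ M}(ε) = ⌈1/ε⌉` when `1/ε` is not an integer. The second part shows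
that every diffuse MASA of the algebra of all bounded operators is nowhere expected. -/
theorem result {H : Type*} [NormedAddCommGroup H] [InnerProductSpace ℂ H] [CompleteSpace H]
    [Nontrivial H] (A M : VonNeumannAlgebra H) (hA : IsMASA A M) :
    (NowhereExpected A M →
      (∀ (r : ℕ) (ε : ℝ), 1 ≤ r → 1 / (r : ℝ) < ε →
        ∀ x ∈ M, IsSelfAdjoint x → SoPavable A M x ε r) ∧
      (∀ (r : ℕ) (ε : ℝ), 1 ≤ r → ε < 1 / (r : ℝ) →
        ∃ x ∈ M, IsSelfAdjoint x ∧ ¬ SoPavable A M x ε r) ∧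
      (∀ ε : ℝ, 0 < ε → ε < 1 → (∀ k : ℕ, (k : ℝ) * ε ≠ 1) →
        pavingNumber A M ε = (⌈1 / ε⌉₊ : ℕ))) ∧
    ((∀ y : H →L[ℂ] H, y ∈ M) → IsDiffuse A → NowhereExpected A M) := by
  refine ⟨fun hne => ?_, fun hM hd => ne_of_diffuse hM hA hd⟩
  have hthin : Thin A M := thin_of_ne hA hne
  have hup : ∀ (r : ℕ) (ε : ℝ), 1 ≤ r → 1 / (r : ℝ) < ε →
      ∀ x ∈ M, IsSelfAdjoint x → SoPavable A M x ε r :=
    fun r ε hr hε x hxM hx => upper_gen hA hthin hxM hx hr hε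
  have hlow : ∀ (r : ℕ) (ε : ℝ), 1 ≤ r → ε < 1 / (r : ℝ) →
      ∃ x ∈ M, IsSelfAdjoint x ∧ ¬ SoPavable A M x ε r :=
    fun r ε hr hε => lower_gen hA hthin hr hε
  refine ⟨hup, hlow, ?_⟩
  intro ε h0 _ hk
  have hinv : 0 < 1 / ε := by positivity
  have hR1 : 1 ≤ ⌈1 / ε⌉₊ := Nat.ceil_pos.mpr hinv
  have hRpos : (0 : ℝ) < (⌈1 / ε⌉₊ : ℝ) := by exact_mod_cast hR1
  have hRgt : 1 / ε < (⌈1 / ε⌉₊ : ℝ) := by
    refine lt_of_le_of_ne (Nat.le_ceil _) fun h => hk ⌈1 / ε⌉₊ ?_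
    rw [← h]
    field_simp
  unfold pavingNumber
  apply le_antisymm
  · refine sInf_le ⟨⌈1 / ε⌉₊, rfl, hR1, hup _ ε hR1 ?_⟩
    rw [div_lt_iff₀ hRpos]
    rw [div_lt_iff₀ h0] at hRgt
    linarith
  · refine le_sInf ?_
    rintro _ ⟨r, rfl, hr1, hr⟩
    by_contra hlt
    have hlt' : r < ⌈1 / ε⌉₊ := by
      have := not_le.mp hlt
      exact_mod_cast this
    have h1 : (r : ℝ) < 1 / ε := Nat.lt_ceil.mp hlt'
    have hrpos : (0 : ℝ) < r := by exact_mod_cast hr1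
    have h2 : ε < 1 / (r : ℝ) := by
      rw [lt_div_iff₀ hrpos]
      rw [lt_div_iff₀ h0] at h1
      linarith
    obtain ⟨x, hxM, hx, hnot⟩ := hlow r ε hr1 h2
    exact hnot (hr x hxM hx)

end Vale.Agent.Results.P078.A1_NowhereExpected
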