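import Vale.Agent.P078.Lower

namespace Vale.Agent.Results.P078.DiffuseMasaSharp

open Vale.Agent.P078

/-- Sharp so-paving for every diffuse MASA `A` of `M = B(H)` (`H` an arbitrary nonzero Hilbert
space): `r` pieces pave every self-adjoint operator up to any `ε > 1/r`, they fail for some
self-adjoint operator if `ε < 1/r`, and hence `n_{A ⊆ M}(ε) = ⌈1/ε⌉` when `1/ε` is not an
integer. -/
theorem result {H : Type*} [NormedAddCommGroup H] [InnerProductSpace ℂ H] [CompleteSpace H]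
    [Nontrivial H] (A M : VonNeumannAlgebra H) (hM : ∀ y : H →L[ℂ] H, y ∈ M)
    (hA : IsMASA A M) (hd : IsDiffuse A) :
    (∀ (r : ℕ) (ε : ℝ), 1 ≤ r → 1 / (r : ℝ) < ε →
      ∀ x ∈ M, IsSelfAdjoint x → SoPavable A M x ε r) ∧
    (∀ (r : ℕ) (ε : ℝ), 1 ≤ r → ε < 1 / (r : ℝ) →
      ∃ x ∈ M, IsSelfAdjoint x ∧ ¬ SoPavable A M x ε r) ∧
    (∀ ε : ℝ, 0 < ε → ε < 1 → (∀ k : ℕ, (k : ℝ) * ε ≠ 1) →
      pavingNumber A M ε = (⌈1 / ε⌉₊ : ℕ)) := by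
  have hctx : Ctx A :=
    ⟨fun a ha b hb => ((hA b).mp hb).2 a ha, fun x hx => (hA x).mpr ⟨hM x, hx⟩⟩
  have hup : ∀ (r : ℕ) (ε : ℝ), 1 ≤ r → 1 / (r : ℝ) < ε →
      ∀ x ∈ M, IsSelfAdjoint x → SoPavable A M x ε r :=
    fun r ε hr hε x _ hx => upper hctx hd M hM hx hr hε
  have hlow : ∀ (r : ℕ) (ε : ℝ), 1 ≤ r → ε < 1 / (r : ℝ) →
      ∃ x ∈ M, IsSelfAdjoint x ∧ ¬ SoPavable A M x ε r := by
    intro r ε hr hε
    obtain ⟨x, hx, hnot⟩ := lower hctx hd M hr hε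
    exact ⟨x, hM x, hx, hnot⟩
  refine ⟨hup, hlow, ?_⟩
  intro ε h0 _ hk
  have hinv : 0 < 1 / ε := by positivity
  have hR1 : 1 ≤ ⌈1 / ε⌉₊ := Nat.ceil_pos.mpr hinv
  have hRpos : (0 : ℝ) < (⌈1 / ε⌉₊ : ℝ) := by exact_mod_cast hR1
  have hRgt : 1 / ε < (⌈1 / ε⌉₊ : ℝ) := by
    refine lt_of_le_of_ne (Nat.le_ceil _) fun h => hk ⌈1 / ε⌉₊ ?_
    rw [← h]
    field_simp
  unfold pavingNumber
  apply le_antisymm
  · refine sInf_le ⟨⌈1 / ε⌉₊, rfl, hR1, hup _ ε hR1 ?_⟩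
    rw [div_lt_iff₀ hRpos]
    rw [div_lt_iff₀ h0] at hRgt
    linarith
  · refine le_sInf ?_
    rintro _ ⟨r, rfl, hr1, hr⟩
    by_contra hlt
    have hlt' : r < ⌈1 / ε⌉₊ := by
      have := not_le.mp hlt
      exact_mod_cast this
    have h1 : (r : ℝ) < 1 / ε := Nat.lt_ceil.mp hlt'
    have hrpos : (0 : ℝ) < r := by exact_mod_cast hr1
    have h2 : ε < 1 / (r : ℝ) := by
      rw [lt_div_iff₀ hrpos]
      rw [lt_div_iff₀ h0] at h1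
      linarith
    obtain ⟨x, hxM, hx, hnot⟩ := hlow r ε hr1 h2
    exact hnot (hr x hxM hx)

end Vale.Agent.Results.P078.DiffuseMasaSharp
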